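import Vale.Agent.P150.Defs
import Vale.Agent.P150.Main

open Vale.Agent.P150 Filter

theorem Vale.Agent.Results.P150.A_half.result :
    (∀ β : ℝ, 0 ≤ β → β < 1 / 2 → ∃ c C : ℝ, 0 < c ∧
      Tendsto (fun n : ℕ => disorder n {g | ¬ (c ≤ gap β g ∧ tmix β g ≤ C * Real.log n)}) atTop
        (nhds 0)) ∧
    (∀ β : ℝ, 0 ≤ β → ∃ c : ℝ, 0 < c ∧
      Tendsto (fun n : ℕ => disorder n {g | ¬ (gap β g ≤ 1 ∧ c * Real.log n ≤ tmix β g)}) atTop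
        (nhds 0)) :=
  ⟨fun _ h0 h1 => main_up h0 h1, fun _ h0 => main_low h0⟩
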